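import Vale.Agent.P235.H926.Fresh

/-!
# Existence of the numerical parameters of claim F
-/

namespace Vale.Agent.P235.H926.PathChain

open Finset

/-- `θ l = 1 / (K (4K)^l)` -/
noncomputable def thSeq (K : ℕ) (l : ℕ) : ℝ := 1 / ((K : ℝ) * (4 * K) ^ l)

/-- partial sums `∑_{j<l} α j / θ j`, computed recursively -/
noncomputable def sumSeq (K : ℕ) (κ : ℝ) : ℕ → ℝ
  | 0 => 0
  | l + 1 => sumSeq K κ l + (2 / κ * (1 + sumSeq K κ l)) / thSeq K l

noncomputable def alSeq (K : ℕ) (κ : ℝ) (l : ℕ) : ℝ := 2 / κ * (1 + sumSeq K κ l)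

theorem thSeq_pos {K : ℕ} (hK : 0 < K) (l : ℕ) : 0 < thSeq K l := by
  unfold thSeq; positivity

theorem thSeq_succ {K : ℕ} (hK : 0 < K) (l : ℕ) : thSeq K (l + 1) * (4 * K) = thSeq K l := by
  have : (K : ℝ) ≠ 0 := by positivity
  unfold thSeq
  field_simp
  ring

theorem thSeq_anti {K : ℕ} (hK : 0 < K) : Antitone (thSeq K) := by
  apply antitone_nat_of_succ_le
  intro l
  rw [← thSeq_succ hK l]
  have h1 : (1 : ℝ) ≤ 4 * K := by
    have : (1 : ℝ) ≤ K := by exact_mod_cast hK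
    linarith
  exact le_mul_of_one_le_right (thSeq_pos hK _).le h1

theorem sumSeq_eq (K : ℕ) (κ : ℝ) (l : ℕ) :
    sumSeq K κ l = ∑ j ∈ range l, alSeq K κ j / thSeq K j := by
  induction l with
  | zero => rfl
  | succ l ih => rw [Finset.sum_range_succ, ← ih]; rfl

theorem sumSeq_nonneg {K : ℕ} (hK : 0 < K) {κ : ℝ} (hκ : 0 < κ) (l : ℕ) : 0 ≤ sumSeq K κ l := by
  induction l with
  | zero => exact le_rfl
  | succ l ih =>
    have := thSeq_pos hK l
    show 0 ≤ sumSeq K κ l + (2 / κ * (1 + sumSeq K κ l)) / thSeq K l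
    positivity

theorem params {K : ℕ} (hK : 0 < K) {κ η₀ : ℝ} (hκ : 0 < κ)
    (hη : K * η₀ ≤ thSeq K (K - 1) / 4) :
    Params K (thSeq K) (alSeq K κ) κ η₀ where
  κ_pos := hκ
  θ_pos := fun l _ => thSeq_pos hK l
  θ_anti := fun l l' h _ => thSeq_anti hK h
  θ_zero := by
    have : (K : ℝ) ≠ 0 := by positivity
    unfold thSeq
    simp [this]
  θ_succ := fun l _ => (thSeq_succ hK l).le
  η_le := fun l hl => by
    have := thSeq_anti hK (show l ≤ K - 1 by omega)
    linarith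
  α_pos := fun l _ => by
    have := sumSeq_nonneg hK hκ l
    unfold alSeq; positivity
  α_ge := fun l _ => by
    rw [← sumSeq_eq]
    unfold alSeq
    have : κ ≠ 0 := hκ.ne'
    apply le_of_eq
    field_simp

/-- the constant of claim F -/
noncomputable def C1 (K : ℕ) (κ : ℝ) : ℝ := ∑ l ∈ range K, alSeq K κ l / thSeq K l

theorem C1_pos {K : ℕ} (hK : 0 < K) {κ : ℝ} (hκ : 0 < κ) : 0 < C1 K κ := by
  unfold C1
  refine Finset.sum_pos (fun l _ => ?_) ⟨0, Finset.mem_range.2 hK⟩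
  have h1 := sumSeq_nonneg hK hκ l
  have h2 := thSeq_pos hK l
  unfold alSeq
  positivity

end Vale.Agent.P235.H926.PathChain
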