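import Mathlib

/-!
# Freshness along a chain of environments (claim F)

Abstract version of the freshness argument: a finite chain of finite probability spaces,
functions `g i`, bags `B i`, adhesions `A (i+1) ⊆ B i`, new vertices `z (i+1)`.
-/

namespace Vale.Agent.P235.H926

open Finset

universe u v

/-- A finite chain of environments along a root path of an elimination tree. -/
structure PathChain (V : Type u) [DecidableEq V] (n : ℕ) where
  Ω : ℕ → Type v
  fin : ∀ i, Fintype (Ω i)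
  P : ∀ i, Ω i → ℝ
  Q : ∀ i, Ω i → Ω (i + 1) → ℝ
  g : ∀ i, Ω i → V → ℝ
  A : ℕ → Finset V
  B : ℕ → Finset V
  z : ℕ → V
  P_nonneg : ∀ i ω, 0 ≤ P i ω
  P_sum : ∀ i, ∑ ω, P i ω = 1
  Q_nonneg : ∀ i ω ω', 0 ≤ Q i ω ω'
  Q_left : ∀ i < n, ∀ ω, ∑ ω', Q i ω ω' = P i ω
  Q_right : ∀ i < n, ∀ ω', ∑ ω, Q i ω ω' = P (i + 1) ω'
  A_sub : ∀ i < n, A (i + 1) ⊆ B i
  B_succ : ∀ i < n, B (i + 1) = insert (z (i + 1)) (A (i + 1))
  z_notMem : ∀ i < n, z (i + 1) ∉ A (i + 1)
  A_ne : ∀ i < n, (A (i + 1)).Nonempty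
  ce : ∀ i < n, ∀ a ∈ A (i + 1), ∀ ω',
    ∑ ω, Q i ω ω' * g i ω a = P (i + 1) ω' * g (i + 1) ω' a
  ord : ∀ i < n, ∀ a ∈ A (i + 1), ∀ b ∈ A (i + 1), ∀ ω',
    (∀ ω, 0 < Q i ω ω' → g i ω a ≤ g i ω b) ∨ (∀ ω, 0 < Q i ω ω' → g i ω b ≤ g i ω a)

attribute [instance] PathChain.fin

namespace PathChain

variable {V : Type u} [DecidableEq V] {n : ℕ} (C : PathChain.{u, v} V n)

/-- average over the past -/
noncomputable def avg (i : ℕ) (f : C.Ω i → ℝ) (ω' : C.Ω (i + 1)) : ℝ :=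
  (∑ ω, C.Q i ω ω' * f ω) / C.P (i + 1) ω'

/-- The monitors `D i`. -/
noncomputable def D : ∀ i, C.Ω i → V → ℝ
  | 0 => fun _ _ => 0
  | i + 1 => fun ω' v =>
      if h : (C.A (i + 1)).Nonempty then
        (if v ∈ C.A (i + 1) then C.avg i (fun ω => D i ω v) ω'
         else (C.A (i + 1)).inf' h
            (fun a => C.avg i (fun ω => D i ω a) ω' + |C.g (i + 1) ω' v - C.g (i + 1) ω' a|))
      else 0

theorem Q_eq_zero {i : ℕ} (hi : i < n) {ω' : C.Ω (i + 1)} (h : C.P (i + 1) ω' = 0)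
    (ω : C.Ω i) : C.Q i ω ω' = 0 := by
  have h1 := C.Q_right i hi ω'
  rw [h] at h1
  exact (Finset.sum_eq_zero_iff_of_nonneg (fun ω _ => C.Q_nonneg i ω ω')).1 h1 ω (mem_univ _)

theorem P_mul_avg {i : ℕ} (hi : i < n) (f : C.Ω i → ℝ) (ω' : C.Ω (i + 1)) :
    C.P (i + 1) ω' * C.avg i f ω' = ∑ ω, C.Q i ω ω' * f ω := by
  unfold avg
  by_cases h : C.P (i + 1) ω' = 0
  · rw [h, zero_mul]
    symm
    apply Finset.sum_eq_zero
    intro ω _
    rw [C.Q_eq_zero hi h ω, zero_mul]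
  · field_simp

theorem abs_ce {i : ℕ} (hi : i < n) {a b : V} (ha : a ∈ C.A (i + 1)) (hb : b ∈ C.A (i + 1))
    (ω' : C.Ω (i + 1)) :
    ∑ ω, C.Q i ω ω' * |C.g i ω a - C.g i ω b|
      = C.P (i + 1) ω' * |C.g (i + 1) ω' a - C.g (i + 1) ω' b| := by
  have key : ∀ {a b : V}, a ∈ C.A (i + 1) → b ∈ C.A (i + 1) →
      (∀ ω, 0 < C.Q i ω ω' → C.g i ω a ≤ C.g i ω b) →
      ∑ ω, C.Q i ω ω' * |C.g i ω a - C.g i ω b|
      = C.P (i + 1) ω' * |C.g (i + 1) ω' a - C.g (i + 1) ω' b| := by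
    intro a b ha hb h
    have e1 : ∀ ω, C.Q i ω ω' * |C.g i ω a - C.g i ω b|
        = C.Q i ω ω' * C.g i ω b - C.Q i ω ω' * C.g i ω a := by
      intro ω
      rcases (C.Q_nonneg i ω ω').eq_or_lt with h0 | h0
      · rw [← h0]; ring
      · rw [abs_of_nonpos (by linarith [h ω h0])]; ring
    have e2 : ∑ ω, C.Q i ω ω' * |C.g i ω a - C.g i ω b|
        = C.P (i + 1) ω' * (C.g (i + 1) ω' b - C.g (i + 1) ω' a) := by
      rw [Finset.sum_congr rfl (fun ω _ => e1 ω), Finset.sum_sub_distrib,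
        C.ce i hi b hb, C.ce i hi a ha]
      ring
    have e3 : 0 ≤ C.P (i + 1) ω' * (C.g (i + 1) ω' b - C.g (i + 1) ω' a) := by
      rw [← e2]
      exact Finset.sum_nonneg (fun ω _ => mul_nonneg (C.Q_nonneg i ω ω') (abs_nonneg _))
    rw [e2]
    rcases (C.P_nonneg (i + 1) ω').eq_or_lt with h0 | h0
    · rw [← h0]; ring
    · have h4 : 0 ≤ C.g (i + 1) ω' b - C.g (i + 1) ω' a := by
        by_contra hneg
        rw [not_le] at hneg
        have := mul_neg_of_pos_of_neg h0 hneg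
        linarith
      rw [abs_of_nonpos (by linarith)]; ring
  rcases C.ord i hi a ha b hb ω' with h | h
  · exact key ha hb h
  · have := key hb ha h
    simp only [abs_sub_comm (C.g i _ b), abs_sub_comm (C.g (i + 1) _ b)] at this
    exact this

theorem D_zero (ω : C.Ω 0) (v : V) : C.D 0 ω v = 0 := rfl

theorem D_succ_mem {i : ℕ} (hi : i < n) {a : V} (ha : a ∈ C.A (i + 1)) (ω' : C.Ω (i + 1)) :
    C.D (i + 1) ω' a = C.avg i (fun ω => C.D i ω a) ω' := by
  simp only [D, dif_pos (C.A_ne i hi), if_pos ha]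

theorem D_succ_notMem {i : ℕ} (hi : i < n) {v : V} (hv : v ∉ C.A (i + 1)) (ω' : C.Ω (i + 1)) :
    C.D (i + 1) ω' v = (C.A (i + 1)).inf' (C.A_ne i hi)
      (fun a => C.D (i + 1) ω' a + |C.g (i + 1) ω' v - C.g (i + 1) ω' a|) := by
  have h1 : C.D (i + 1) ω' v = (C.A (i + 1)).inf' (C.A_ne i hi)
      (fun a => C.avg i (fun ω => C.D i ω a) ω' + |C.g (i + 1) ω' v - C.g (i + 1) ω' a|) := by
    simp only [D, dif_pos (C.A_ne i hi), if_neg hv]
  rw [h1]
  apply Finset.inf'_congr (C.A_ne i hi) rfl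
  intro a ha
  rw [C.D_succ_mem hi ha]

theorem P_mul_D {i : ℕ} (hi : i < n) {a : V} (ha : a ∈ C.A (i + 1)) (ω' : C.Ω (i + 1)) :
    C.P (i + 1) ω' * C.D (i + 1) ω' a = ∑ ω, C.Q i ω ω' * C.D i ω a := by
  rw [C.D_succ_mem hi ha, C.P_mul_avg hi]

/-- the monitors are dominated by the increments of `g` (where the weight is positive) -/
theorem D_lip : ∀ i ≤ n, ∀ ω, 0 < C.P i ω → ∀ p ∈ C.B i, ∀ q ∈ C.B i,
    |C.D i ω p - C.D i ω q| ≤ |C.g i ω p - C.g i ω q| := by
  intro i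
  induction i with
  | zero =>
    intro _ ω _ p _ q _
    rw [D_zero, D_zero]
    simp
  | succ i ih =>
    intro hi ω' hω' p hp q hq
    have hi' : i < n := hi
    have hA : ∀ a ∈ C.A (i + 1), ∀ b ∈ C.A (i + 1),
        |C.D (i + 1) ω' a - C.D (i + 1) ω' b| ≤ |C.g (i + 1) ω' a - C.g (i + 1) ω' b| := by
      intro a ha b hb
      have h1 : C.P (i + 1) ω' * |C.D (i + 1) ω' a - C.D (i + 1) ω' b|
          = |∑ ω, C.Q i ω ω' * (C.D i ω a - C.D i ω b)| := by
        have h0 : C.P (i + 1) ω' * |C.D (i + 1) ω' a - C.D (i + 1) ω' b|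
            = |C.P (i + 1) ω' * (C.D (i + 1) ω' a - C.D (i + 1) ω' b)| := by
          rw [abs_mul, abs_of_nonneg (C.P_nonneg (i + 1) ω')]
        rw [h0, mul_sub, C.P_mul_D hi' ha, C.P_mul_D hi' hb, ← Finset.sum_sub_distrib]
        congr 1
        apply Finset.sum_congr rfl
        intro ω _
        ring
      have h2 : |∑ ω, C.Q i ω ω' * (C.D i ω a - C.D i ω b)|
          ≤ ∑ ω, C.Q i ω ω' * |C.g i ω a - C.g i ω b| := by
        refine (Finset.abs_sum_le_sum_abs _ _).trans (Finset.sum_le_sum fun ω _ => ?_)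
        rw [abs_mul, abs_of_nonneg (C.Q_nonneg i ω ω')]
        rcases (C.Q_nonneg i ω ω').eq_or_lt with h0 | h0
        · rw [← h0]; simp
        · refine mul_le_mul_of_nonneg_left ?_ (C.Q_nonneg i ω ω')
          refine ih hi'.le ω ?_ a (C.A_sub i hi' ha) b (C.A_sub i hi' hb)
          rw [← C.Q_left i hi' ω]
          exact lt_of_lt_of_le h0
            (Finset.single_le_sum (f := fun ω' => C.Q i ω ω')
              (fun ω' _ => C.Q_nonneg i ω ω') (mem_univ ω'))
      rw [C.abs_ce hi' ha hb] at h2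
      rw [← h1] at h2
      exact le_of_mul_le_mul_left h2 hω'
    have hz : ∀ a ∈ C.A (i + 1), ∀ v ∉ C.A (i + 1),
        |C.D (i + 1) ω' v - C.D (i + 1) ω' a| ≤ |C.g (i + 1) ω' v - C.g (i + 1) ω' a| := by
      intro a ha v hv
      rw [C.D_succ_notMem hi' hv, abs_le]
      constructor
      · have : C.D (i + 1) ω' a - |C.g (i + 1) ω' v - C.g (i + 1) ω' a|
            ≤ (C.A (i + 1)).inf' (C.A_ne i hi')
              (fun a => C.D (i + 1) ω' a + |C.g (i + 1) ω' v - C.g (i + 1) ω' a|) := by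
          refine Finset.le_inf' _ _ fun b hb => ?_
          have h1 := hA a ha b hb
          have h2 := abs_le.1 h1
          have h3 : |C.g (i + 1) ω' a - C.g (i + 1) ω' b|
              ≤ |C.g (i + 1) ω' v - C.g (i + 1) ω' a| + |C.g (i + 1) ω' v - C.g (i + 1) ω' b| := by
            rw [abs_sub_comm (C.g (i + 1) ω' v) (C.g (i + 1) ω' a)]
            exact abs_sub_le _ _ _
          show C.D (i + 1) ω' a - |C.g (i + 1) ω' v - C.g (i + 1) ω' a|
            ≤ C.D (i + 1) ω' b + |C.g (i + 1) ω' v - C.g (i + 1) ω' b|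
          linarith [h2.1, h2.2]
        linarith
      · have : (C.A (i + 1)).inf' (C.A_ne i hi')
              (fun a => C.D (i + 1) ω' a + |C.g (i + 1) ω' v - C.g (i + 1) ω' a|)
            ≤ C.D (i + 1) ω' a + |C.g (i + 1) ω' v - C.g (i + 1) ω' a| :=
          Finset.inf'_le (f := fun a => C.D (i + 1) ω' a + |C.g (i + 1) ω' v - C.g (i + 1) ω' a|) ha
        linarith
    rw [C.B_succ i hi', Finset.mem_insert] at hp hq
    by_cases hp' : p ∈ C.A (i + 1) <;> by_cases hq' : q ∈ C.A (i + 1)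
    · exact hA p hp' q hq'
    · rw [abs_sub_comm, abs_sub_comm (C.g (i + 1) ω' p)]
      exact hz p hp' q hq'
    · exact hz q hq' p hp'
    · have e1 : p = C.z (i + 1) := hp.resolve_right hp'
      have e2 : q = C.z (i + 1) := hq.resolve_right hq'
      rw [e1, e2]; simp

/-- The numerical data of claim F. -/
structure Params (K : ℕ) (θ α : ℕ → ℝ) (κ η₀ : ℝ) : Prop where
  κ_pos : 0 < κ
  θ_pos : ∀ l < K, 0 < θ l
  θ_anti : ∀ l l', l ≤ l' → l' < K → θ l' ≤ θ l
  θ_zero : θ 0 * K ≤ 1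
  θ_succ : ∀ l, l + 1 < K → θ (l + 1) * (4 * K) ≤ θ l
  η_le : ∀ l < K, K * η₀ ≤ θ l / 4
  α_pos : ∀ l < K, 0 < α l
  α_ge : ∀ l < K, 1 + ∑ j ∈ range l, α j / θ j ≤ α l * κ / 2

/-- selection of the good level -/
theorem exists_level {A : Finset V} (hA : A.Nonempty) {K : ℕ} (hK : A.card ≤ K)
    {θ : ℕ → ℝ} (θ_pos : ∀ l < K, 0 < θ l) (θ_zero : θ 0 * K ≤ 1)
    (θ_succ : ∀ l, l + 1 < K → θ (l + 1) * (4 * K) ≤ θ l)
    (m dz : V → ℝ) (hsum : ∑ a ∈ A, m a = 1) :
    ∃ l < K, ∃ v ∈ A, θ l ≤ m v ∧ ∑ a ∈ A with dz a < dz v, m a ≤ θ l / 4 := by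
  have hK0 : 0 < K := lt_of_lt_of_le (Finset.card_pos.2 hA) hK
  by_contra hcon
  push Not at hcon
  have step : ∀ l, l < K → ∃ v ∈ A, θ l ≤ m v ∧ l + 1 ≤ (A.filter (fun a => dz v ≤ dz a)).card := by
    intro l
    induction l with
    | zero =>
      intro _
      have : ∃ v ∈ A, θ 0 ≤ m v := by
        by_contra h
        push Not at h
        have h1 : ∑ a ∈ A, m a < ∑ _a ∈ A, θ 0 := Finset.sum_lt_sum_of_nonempty hA h
        rw [hsum, Finset.sum_const, nsmul_eq_mul] at h1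
        have h2 : (A.card : ℝ) ≤ K := by exact_mod_cast hK
        have h3 := mul_le_mul_of_nonneg_right h2 (θ_pos 0 hK0).le
        linarith
      obtain ⟨v, hv, h⟩ := this
      refine ⟨v, hv, h, ?_⟩
      have : 0 < (A.filter (fun a => dz v ≤ dz a)).card :=
        Finset.card_pos.2 ⟨v, by simp [hv]⟩
      omega
    | succ l ih =>
      intro hl
      obtain ⟨v, hv, h1, h2⟩ := ih (by omega)
      have h3 := hcon l (by omega) v hv h1
      have : ∃ a ∈ A.filter (fun a => dz a < dz v), θ (l + 1) ≤ m a := by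
        by_contra h
        push Not at h
        have h4 : ∑ a ∈ A with dz a < dz v, m a ≤ ∑ _a ∈ A.filter (fun a => dz a < dz v), θ (l + 1) :=
          Finset.sum_le_sum fun a ha => (h a ha).le
        rw [Finset.sum_const, nsmul_eq_mul] at h4
        have h5 : ((A.filter (fun a => dz a < dz v)).card : ℝ) ≤ K := by
          exact_mod_cast (Finset.card_filter_le _ _).trans hK
        have h6 := mul_le_mul_of_nonneg_right h5 (θ_pos (l + 1) hl).le
        have h7 := θ_succ l hl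
        linarith
      obtain ⟨a, ha, h4⟩ := this
      rw [Finset.mem_filter] at ha
      refine ⟨a, ha.1, h4, ?_⟩
      have h5 : insert a (A.filter (fun b => dz v ≤ dz b)) ⊆ A.filter (fun b => dz a ≤ dz b) := by
        intro b hb
        rw [Finset.mem_insert, Finset.mem_filter] at hb
        rw [Finset.mem_filter]
        rcases hb with rfl | hb
        · exact ⟨ha.1, le_rfl⟩
        · exact ⟨hb.1, ha.2.le.trans hb.2⟩
      have h6 : a ∉ A.filter (fun b => dz v ≤ dz b) := by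
        simp [ha.2]
      have h7 := Finset.card_le_card h5
      rw [Finset.card_insert_of_notMem h6] at h7
      omega
  obtain ⟨v, hv, h1, h2⟩ := step (K - 1) (by omega)
  have h3 := hcon (K - 1) (by omega) v hv h1
  have h4 : ∃ a ∈ A, dz a < dz v := by
    by_contra h
    push Not at h
    have : A.filter (fun a => dz a < dz v) = ∅ := by
      apply Finset.filter_eq_empty_iff.2
      intro a ha
      exact not_lt.2 (h a ha)
    rw [this, Finset.sum_empty] at h3
    have := θ_pos (K - 1) (by omega)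
    linarith
  obtain ⟨a, ha, h5⟩ := h4
  have h6 : insert a (A.filter (fun b => dz v ≤ dz b)) ⊆ A := by
    intro b hb
    rw [Finset.mem_insert, Finset.mem_filter] at hb
    rcases hb with rfl | hb
    · exact ha
    · exact hb.1
  have h7 := Finset.card_le_card h6
  rw [Finset.card_insert_of_notMem (by simp [h5])] at h7
  omega

/-- The induction statement: positions in `S`, vertices in `T`. -/
def ClaimOn (K : ℕ) (θ α : ℕ → ℝ) (r : V → ℝ) (i : ℕ) (S T : Finset V) : Prop :=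
  ∀ (π : C.Ω i → V → ℝ) (τ : ℕ → C.Ω i → V → ℝ),
    (∀ ω, ∀ b ∈ S, 0 ≤ π ω b) → (∀ ω, ∑ b ∈ S, π ω b = C.P i ω) →
    (∀ l < K, ∀ ω, ∀ b ∈ S, 0 ≤ τ l ω b) → (∀ l < K, ∀ ω, ∀ b ∈ S, τ l ω b ≤ π ω b) →
    (∀ l < K, ∑ ω, ∑ b ∈ S, τ l ω b = θ l) →
    ∀ v ∈ T, r v ≤ (∑ l ∈ range K, α l / θ l * ∑ ω, ∑ b ∈ S, τ l ω b * |C.g i ω b - C.g i ω v|)
      + (∑ l ∈ range K, α l / θ l) * ∑ ω, ∑ b ∈ S, π ω b * C.D i ω b

variable {K : ℕ} {θ α : ℕ → ℝ} {κ η₀ : ℝ} {r : V → ℝ} {d : V → V → ℝ}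

theorem claim_zero (hp : Params K θ α κ η₀) (hr : ∀ v ∈ C.B 0, r v ≤ 0) :
    C.ClaimOn K θ α r 0 (C.B 0) (C.B 0) := by
  intro π τ _ _ h3 _ _ v hv
  have h0 : ∑ ω, ∑ b ∈ C.B 0, π ω b * C.D 0 ω b = 0 := by
    apply Finset.sum_eq_zero; intro ω _
    apply Finset.sum_eq_zero; intro b _
    rw [C.D_zero, mul_zero]
  rw [h0, mul_zero, add_zero]
  refine (hr v hv).trans (Finset.sum_nonneg fun l hl => ?_)
  have hl' := Finset.mem_range.1 hl
  refine mul_nonneg (div_nonneg (hp.α_pos l hl').le (hp.θ_pos l hl').le) ?_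
  refine Finset.sum_nonneg fun ω _ => Finset.sum_nonneg fun b hb => ?_
  exact mul_nonneg (h3 l hl' ω b hb) (abs_nonneg _)

/-- transport of a function on `Ω (i+1)` to the past -/
noncomputable def back (i : ℕ) (f : C.Ω (i + 1) → ℝ) (ω : C.Ω i) : ℝ :=
  ∑ ω', C.Q i ω ω' * (f ω' / C.P (i + 1) ω')

theorem sum_back_mul {i : ℕ} (f : C.Ω (i + 1) → ℝ)
    (hf : ∀ ω', C.P (i + 1) ω' = 0 → f ω' = 0) (h : C.Ω i → ℝ) (h' : C.Ω (i + 1) → ℝ)
    (hh : ∀ ω', ∑ ω, C.Q i ω ω' * h ω = C.P (i + 1) ω' * h' ω') :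
    ∑ ω, C.back i f ω * h ω = ∑ ω', f ω' * h' ω' := by
  unfold back
  have e1 : ∀ ω, (∑ ω', C.Q i ω ω' * (f ω' / C.P (i + 1) ω')) * h ω
      = ∑ ω', (f ω' / C.P (i + 1) ω') * (C.Q i ω ω' * h ω) := by
    intro ω
    rw [Finset.sum_mul]
    exact Finset.sum_congr rfl fun ω' _ => by ring
  rw [Finset.sum_congr rfl fun ω _ => e1 ω, Finset.sum_comm]
  refine Finset.sum_congr rfl fun ω' _ => ?_
  rw [← Finset.mul_sum, hh ω']
  by_cases h0 : C.P (i + 1) ω' = 0
  · rw [h0, hf ω' h0]; simp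
  · field_simp

theorem claim_reset (i : ℕ) (hi : i < n)
    (h : C.ClaimOn K θ α r i (C.B i) (C.B i)) :
    C.ClaimOn K θ α r (i + 1) (C.A (i + 1)) (C.A (i + 1)) := by
  intro π τ h1 h2 h3 h4 h5 v hv
  have hπ0 : ∀ b ∈ C.A (i + 1), ∀ ω', C.P (i + 1) ω' = 0 → π ω' b = 0 := by
    intro b hb ω' h0
    have := h2 ω'
    rw [h0] at this
    exact (Finset.sum_eq_zero_iff_of_nonneg (fun b hb => h1 ω' b hb)).1 this b hb
  have hτ0 : ∀ l < K, ∀ b ∈ C.A (i + 1), ∀ ω', C.P (i + 1) ω' = 0 → τ l ω' b = 0 := by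
    intro l hl b hb ω' h0
    refine le_antisymm ?_ (h3 l hl ω' b hb)
    rw [← hπ0 b hb ω' h0]
    exact h4 l hl ω' b hb
  set π' : C.Ω i → V → ℝ := fun ω b => if b ∈ C.A (i + 1) then C.back i (fun ω' => π ω' b) ω else 0
    with hπ'
  set τ' : ℕ → C.Ω i → V → ℝ := fun l ω b =>
    if b ∈ C.A (i + 1) then C.back i (fun ω' => τ l ω' b) ω else 0 with hτ'
  have hsub := C.A_sub i hi
  -- sums over `B i` reduce to sums over `A (i+1)`
  have red : ∀ (F : V → ℝ) (G : V → ℝ), ∑ b ∈ C.B i, (if b ∈ C.A (i + 1) then F b else 0) * G b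
      = ∑ b ∈ C.A (i + 1), F b * G b := by
    intro F G
    rw [← Finset.sum_subset hsub]
    · exact Finset.sum_congr rfl fun b hb => by rw [if_pos hb]
    · intro b _ hb
      rw [if_neg hb, zero_mul]
  have red1 : ∀ (F : V → ℝ), ∑ b ∈ C.B i, (if b ∈ C.A (i + 1) then F b else 0)
      = ∑ b ∈ C.A (i + 1), F b := by
    intro F
    have := red F (fun _ => 1)
    simpa using this
  have back_nonneg : ∀ (f : C.Ω (i + 1) → ℝ), (∀ ω', 0 ≤ f ω') → ∀ ω, 0 ≤ C.back i f ω := by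
    intro f hf ω
    refine Finset.sum_nonneg fun ω' _ => mul_nonneg (C.Q_nonneg _ _ _) ?_
    exact div_nonneg (hf ω') (C.P_nonneg _ _)
  have key := h π' τ' ?_ ?_ ?_ ?_ ?_ v (hsub hv)
  · refine key.trans (le_of_eq ?_)
    congr 1
    · refine Finset.sum_congr rfl fun l hl => ?_
      have hl' := Finset.mem_range.1 hl
      congr 1
      simp only [hτ', red]
      rw [Finset.sum_comm, Finset.sum_comm (s := Finset.univ) (t := C.A (i + 1))]
      refine Finset.sum_congr rfl fun b hb => ?_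
      exact C.sum_back_mul (fun ω' => τ l ω' b) (hτ0 l hl' b hb) _ _
        (fun ω' => C.abs_ce hi hb hv ω')
    · congr 1
      simp only [hπ', red]
      rw [Finset.sum_comm, Finset.sum_comm (s := Finset.univ) (t := C.A (i + 1))]
      refine Finset.sum_congr rfl fun b hb => ?_
      refine C.sum_back_mul (fun ω' => π ω' b) (hπ0 b hb) _ _ (fun ω' => ?_)
      rw [C.P_mul_D hi hb]
  · intro ω b _
    simp only [hπ']
    split_ifs with hb
    · exact Finset.sum_nonneg fun ω' _ => mul_nonneg (C.Q_nonneg _ _ _)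
        (div_nonneg (h1 ω' b hb) (C.P_nonneg _ _))
    · exact le_rfl
  · intro ω
    simp only [hπ', red1]
    unfold back
    rw [Finset.sum_comm]
    rw [← C.Q_left i hi ω]
    refine Finset.sum_congr rfl fun ω' _ => ?_
    rw [← Finset.mul_sum, ← Finset.sum_div, h2 ω']
    by_cases h0 : C.P (i + 1) ω' = 0
    · rw [C.Q_eq_zero hi h0]; simp
    · rw [div_self h0, mul_one]
  · intro l hl ω b _
    simp only [hτ']
    split_ifs with hb
    · exact Finset.sum_nonneg fun ω' _ => mul_nonneg (C.Q_nonneg _ _ _)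
        (div_nonneg (h3 l hl ω' b hb) (C.P_nonneg _ _))
    · exact le_rfl
  · intro l hl ω b _
    simp only [hτ', hπ']
    split_ifs with hb
    · refine Finset.sum_le_sum fun ω' _ => mul_le_mul_of_nonneg_left ?_ (C.Q_nonneg _ _ _)
      exact div_le_div_of_nonneg_right (h4 l hl ω' b hb) (C.P_nonneg _ _)
    · exact le_rfl
  · intro l hl
    simp only [hτ', red1]
    rw [← h5 l hl, Finset.sum_comm, Finset.sum_comm (s := Finset.univ) (t := C.A (i + 1))]
    refine Finset.sum_congr rfl fun b hb => ?_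
    have := C.sum_back_mul (fun ω' => τ l ω' b) (hτ0 l hl b hb) (fun _ => 1) (fun _ => 1)
      (fun ω' => by simp [C.Q_right i hi ω'])
    simpa using this

/-- introduction of the new vertex -/
theorem claim_intro (hp : Params K θ α κ η₀) (i : ℕ) (hi : i < n)
    (hcard : (C.A (i + 1)).card ≤ K)
    (hr : ∀ a ∈ C.A (i + 1), r (C.z (i + 1)) ≤ r a + d (C.z (i + 1)) a)
    (hd : ∀ a ∈ C.A (i + 1), 0 ≤ d (C.z (i + 1)) a)
    (hLip : ∀ a ∈ C.A (i + 1),
      ∑ ω, C.P (i + 1) ω * |C.g (i + 1) ω (C.z (i + 1)) - C.g (i + 1) ω a| ≤ d (C.z (i + 1)) a)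
    (hAC : ∀ a ∈ C.A (i + 1),
      (∑ ω, if |C.g (i + 1) ω (C.z (i + 1)) - C.g (i + 1) ω a| < κ * d (C.z (i + 1)) a
        then C.P (i + 1) ω else 0) ≤ η₀)
    (h : C.ClaimOn K θ α r (i + 1) (C.A (i + 1)) (C.A (i + 1))) :
    C.ClaimOn K θ α r (i + 1) (C.A (i + 1)) (C.B (i + 1)) := by
  intro π τ h1 h2 h3 h4 h5 v hv
  rw [C.B_succ i hi, Finset.mem_insert] at hv
  rcases hv with hv | hv
  swap
  · exact h π τ h1 h2 h3 h4 h5 v hv
  subst hv
  set z := C.z (i + 1) with hz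
  set A := C.A (i + 1) with hA
  -- masses
  set m : V → ℝ := fun a => ∑ ω, π ω a with hm
  have hm0 : ∀ a ∈ A, 0 ≤ m a := fun a ha => Finset.sum_nonneg fun ω _ => h1 ω a ha
  have hmsum : ∑ a ∈ A, m a = 1 := by
    simp only [hm]
    rw [Finset.sum_comm]
    rw [Finset.sum_congr rfl fun ω _ => h2 ω, C.P_sum]
  obtain ⟨l₀, hl₀, v, hv, hmv, hsm⟩ := exists_level (C.A_ne i hi) hcard hp.θ_pos hp.θ_zero
    hp.θ_succ m (d z) hmsum
  have hmv_pos : 0 < m v := lt_of_lt_of_le (hp.θ_pos l₀ hl₀) hmv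
  -- the modified family
  set τ' : ℕ → C.Ω (i + 1) → V → ℝ := fun l ω b =>
    if l < l₀ then τ l ω b else (if b = v then θ l / m v * π ω v else 0) with hτ'
  have key := h π τ' h1 h2 ?_ ?_ ?_ v hv
  · set δ := d z v with hδ
    have hδ0 : 0 ≤ δ := hd v hv
    set E := (∑ l ∈ range K, α l / θ l) * ∑ ω, ∑ b ∈ A, π ω b * C.D (i + 1) ω b with hE
    -- I-terms
    set I : ℕ → ℝ := fun l => ∑ ω, ∑ b ∈ A, τ l ω b * |C.g (i + 1) ω b - C.g (i + 1) ω z| with hI
    have hI0 : ∀ l < K, 0 ≤ I l := fun l hl => Finset.sum_nonneg fun ω _ =>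
      Finset.sum_nonneg fun b hb => mul_nonneg (h3 l hl ω b hb) (abs_nonneg _)
    have hτP : ∀ l < K, ∀ ω, ∀ b ∈ A, τ l ω b ≤ C.P (i + 1) ω := by
      intro l hl ω b hb
      refine (h4 l hl ω b hb).trans ?_
      rw [← h2 ω]
      exact Finset.single_le_sum (f := fun b => π ω b) (fun b hb => h1 ω b hb) hb
    -- l < l₀
    have hlow : ∀ l < l₀, ∑ ω, ∑ b ∈ A, τ' l ω b * |C.g (i + 1) ω b - C.g (i + 1) ω v| ≤ I l + δ := by
      intro l hl
      have hlK : l < K := hl.trans hl₀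
      have e1 : ∀ ω, ∑ b ∈ A, τ' l ω b * |C.g (i + 1) ω b - C.g (i + 1) ω v|
          ≤ (∑ b ∈ A, τ l ω b * |C.g (i + 1) ω b - C.g (i + 1) ω z|)
            + C.P (i + 1) ω * |C.g (i + 1) ω z - C.g (i + 1) ω v| := by
        intro ω
        have e2 : ∑ b ∈ A, τ' l ω b * |C.g (i + 1) ω b - C.g (i + 1) ω v|
            ≤ ∑ b ∈ A, (τ l ω b * |C.g (i + 1) ω b - C.g (i + 1) ω z|
              + τ l ω b * |C.g (i + 1) ω z - C.g (i + 1) ω v|) := by
          refine Finset.sum_le_sum fun b hb => ?_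
          simp only [hτ', if_pos hl]
          rw [← mul_add]
          exact mul_le_mul_of_nonneg_left (abs_sub_le _ _ _) (h3 l hlK ω b hb)
        rw [Finset.sum_add_distrib, ← Finset.sum_mul] at e2
        have e3 : ∑ b ∈ A, τ l ω b ≤ C.P (i + 1) ω := by
          rw [← h2 ω]
          exact Finset.sum_le_sum fun b hb => h4 l hlK ω b hb
        have e4 := mul_le_mul_of_nonneg_right e3
          (abs_nonneg (C.g (i + 1) ω z - C.g (i + 1) ω v))
        linarith
      have e5 := Finset.sum_le_sum (s := Finset.univ) fun ω _ => e1 ω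
      rw [Finset.sum_add_distrib] at e5
      have e6 := hLip v hv
      linarith
    -- l₀ ≤ l
    have hhigh : ∀ l, ¬ l < l₀ → ∑ ω, ∑ b ∈ A, τ' l ω b * |C.g (i + 1) ω b - C.g (i + 1) ω v| = 0 := by
      intro l hl
      apply Finset.sum_eq_zero; intro ω _
      apply Finset.sum_eq_zero; intro b _
      simp only [hτ', if_neg hl]
      split_ifs with hb
      · rw [hb, sub_self, abs_zero, mul_zero]
      · rw [zero_mul]
    -- the gain at level l₀
    have hgain : κ * δ * (θ l₀ / 2) ≤ I l₀ := by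
      have p1 : ∀ ω, ∀ b ∈ A, κ * δ * (τ l₀ ω b - (if d z b < δ then π ω b else 0)
          - (if |C.g (i + 1) ω z - C.g (i + 1) ω b| < κ * d z b then C.P (i + 1) ω else 0))
          ≤ τ l₀ ω b * |C.g (i + 1) ω b - C.g (i + 1) ω z| := by
        intro ω b hb
        have q1 := h3 l₀ hl₀ ω b hb
        have q2 := h4 l₀ hl₀ ω b hb
        have q3 := hτP l₀ hl₀ ω b hb
        have q4 := C.P_nonneg (i + 1) ω
        have q5 : 0 ≤ κ * δ := mul_nonneg hp.κ_pos.le hδ0
        have q6 := h1 ω b hb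
        have q7 : 0 ≤ τ l₀ ω b * |C.g (i + 1) ω b - C.g (i + 1) ω z| :=
          mul_nonneg q1 (abs_nonneg _)
        by_cases c1 : d z b < δ
        · rw [if_pos c1]
          refine le_trans ?_ q7
          refine mul_nonpos_of_nonneg_of_nonpos q5 ?_
          split_ifs <;> linarith
        · by_cases c2 : |C.g (i + 1) ω z - C.g (i + 1) ω b| < κ * d z b
          · rw [if_pos c2]
            refine le_trans ?_ q7
            refine mul_nonpos_of_nonneg_of_nonpos q5 ?_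
            split_ifs <;> linarith
          · rw [if_neg c1, if_neg c2, sub_zero, sub_zero, mul_comm]
            refine mul_le_mul_of_nonneg_left ?_ q1
            rw [abs_sub_comm]
            rw [not_lt] at c1 c2
            exact (mul_le_mul_of_nonneg_left c1 hp.κ_pos.le).trans c2
      have p2 : κ * δ * ((∑ ω, ∑ b ∈ A, τ l₀ ω b) - (∑ ω, ∑ b ∈ A, if d z b < δ then π ω b else 0)
          - (∑ ω, ∑ b ∈ A, if |C.g (i + 1) ω z - C.g (i + 1) ω b| < κ * d z b
              then C.P (i + 1) ω else 0)) ≤ I l₀ := by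
        have p3 : κ * δ * ((∑ ω, ∑ b ∈ A, τ l₀ ω b) - (∑ ω, ∑ b ∈ A, if d z b < δ then π ω b else 0)
          - (∑ ω, ∑ b ∈ A, if |C.g (i + 1) ω z - C.g (i + 1) ω b| < κ * d z b
              then C.P (i + 1) ω else 0))
            = ∑ ω, ∑ b ∈ A, κ * δ * (τ l₀ ω b - (if d z b < δ then π ω b else 0)
              - (if |C.g (i + 1) ω z - C.g (i + 1) ω b| < κ * d z b then C.P (i + 1) ω else 0)) := by
          simp only [Finset.mul_sum, mul_sub, Finset.sum_sub_distrib]
        rw [p3]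
        exact Finset.sum_le_sum fun ω _ => Finset.sum_le_sum fun b hb => p1 ω b hb
      have p4 : (∑ ω, ∑ b ∈ A, if d z b < δ then π ω b else 0) ≤ θ l₀ / 4 := by
        rw [Finset.sum_comm]
        have : ∑ b ∈ A, (∑ ω, if d z b < δ then π ω b else 0) = ∑ a ∈ A with d z a < d z v, m a := by
          rw [Finset.sum_filter]
          refine Finset.sum_congr rfl fun b _ => ?_
          by_cases c : d z b < δ
          · simp only [if_pos c, hm]
            rw [if_pos (show d z b < d z v from c)]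
          · simp only [if_neg c]
            rw [if_neg (show ¬ d z b < d z v from c)]
            simp
        rw [this]
        exact hsm
      have p5 : (∑ ω, ∑ b ∈ A, if |C.g (i + 1) ω z - C.g (i + 1) ω b| < κ * d z b
              then C.P (i + 1) ω else 0) ≤ θ l₀ / 4 := by
        rw [Finset.sum_comm]
        have q1 : ∑ b ∈ A, (∑ ω, if |C.g (i + 1) ω z - C.g (i + 1) ω b| < κ * d z b
              then C.P (i + 1) ω else 0) ≤ ∑ _b ∈ A, η₀ :=
          Finset.sum_le_sum fun b hb => hAC b hb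
        rw [Finset.sum_const, nsmul_eq_mul] at q1
        have q2 : (A.card : ℝ) ≤ K := by exact_mod_cast hcard
        have q3 : 0 ≤ η₀ := by
          refine le_trans ?_ (hAC v hv)
          refine Finset.sum_nonneg fun ω _ => ?_
          split_ifs
          · exact C.P_nonneg _ _
          · exact le_rfl
        have q4 := mul_le_mul_of_nonneg_right q2 q3
        have q5 := hp.η_le l₀ hl₀
        linarith
      rw [h5 l₀ hl₀] at p2
      refine le_trans ?_ p2
      refine mul_le_mul_of_nonneg_left ?_ (mul_nonneg hp.κ_pos.le hδ0)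
      linarith
    -- compare the sums
    have hcmp : (∑ l ∈ range K, α l / θ l *
          ∑ ω, ∑ b ∈ A, τ' l ω b * |C.g (i + 1) ω b - C.g (i + 1) ω v|) + δ
        ≤ ∑ l ∈ range K, α l / θ l * I l := by
      have hpos : ∀ l < K, 0 ≤ α l / θ l := fun l hl =>
        div_nonneg (hp.α_pos l hl).le (hp.θ_pos l hl).le
      have c1 : ∑ l ∈ range K, α l / θ l *
          ∑ ω, ∑ b ∈ A, τ' l ω b * |C.g (i + 1) ω b - C.g (i + 1) ω v|
          = ∑ l ∈ range l₀, α l / θ l *
          ∑ ω, ∑ b ∈ A, τ' l ω b * |C.g (i + 1) ω b - C.g (i + 1) ω v| := by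
        symm
        apply Finset.sum_subset
        · intro l hl
          rw [Finset.mem_range] at hl ⊢
          omega
        · intro l _ hl
          rw [Finset.mem_range] at hl
          rw [hhigh l hl, mul_zero]
      have c2 : ∑ l ∈ range l₀, α l / θ l *
          ∑ ω, ∑ b ∈ A, τ' l ω b * |C.g (i + 1) ω b - C.g (i + 1) ω v|
          ≤ ∑ l ∈ range l₀, (α l / θ l * I l + α l / θ l * δ) := by
        refine Finset.sum_le_sum fun l hl => ?_
        rw [Finset.mem_range] at hl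
        rw [← mul_add]
        exact mul_le_mul_of_nonneg_left (hlow l hl) (hpos l (hl.trans hl₀))
      rw [Finset.sum_add_distrib, ← Finset.sum_mul] at c2
      have c3 : ∑ l ∈ range (l₀ + 1), α l / θ l * I l ≤ ∑ l ∈ range K, α l / θ l * I l := by
        apply Finset.sum_le_sum_of_subset_of_nonneg
        · intro l hl
          rw [Finset.mem_range] at hl ⊢
          omega
        · intro l hl _
          rw [Finset.mem_range] at hl
          exact mul_nonneg (hpos l hl) (hI0 l hl)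
      rw [Finset.sum_range_succ] at c3
      have c4 : δ * (1 + ∑ j ∈ range l₀, α j / θ j) ≤ α l₀ / θ l₀ * I l₀ := by
        have c5 : α l₀ / θ l₀ * (κ * δ * (θ l₀ / 2)) ≤ α l₀ / θ l₀ * I l₀ :=
          mul_le_mul_of_nonneg_left hgain (hpos l₀ hl₀)
        have c6 : α l₀ / θ l₀ * (κ * δ * (θ l₀ / 2)) = δ * (α l₀ * κ / 2) := by
          have := (hp.θ_pos l₀ hl₀).ne'
          field_simp
        rw [c6] at c5
        exact (mul_le_mul_of_nonneg_left (hp.α_ge l₀ hl₀) hδ0).trans c5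
      rw [c1]
      linarith
    have := hr v hv
    linarith
  · -- nonneg
    intro l hl ω b hb
    simp only [hτ']
    split_ifs with c1 c2
    · exact h3 l hl ω b hb
    · exact mul_nonneg (div_nonneg (hp.θ_pos l hl).le hmv_pos.le) (h1 ω v hv)
    · exact le_rfl
  · intro l hl ω b hb
    simp only [hτ']
    split_ifs with c1 c2
    · exact h4 l hl ω b hb
    · rw [c2]
      have : θ l / m v ≤ 1 := by
        rw [div_le_one hmv_pos]
        exact (hp.θ_anti l₀ l (not_lt.1 c1) hl).trans hmv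
      exact mul_le_of_le_one_left (h1 ω v hv) this
    · exact h1 ω b hb
  · intro l hl
    by_cases c1 : l < l₀
    · simp only [hτ', if_pos c1]
      exact h5 l hl
    · simp only [hτ', if_neg c1]
      have : ∀ ω, ∑ b ∈ A, (if b = v then θ l / m v * π ω v else 0) = θ l / m v * π ω v := by
        intro ω
        rw [Finset.sum_ite_eq' A v, if_pos hv]
      rw [Finset.sum_congr rfl fun ω _ => this ω, ← Finset.mul_sum]
      exact div_mul_cancel₀ _ hmv_pos.ne'

/-- the jump of the position -/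
theorem claim_jump (hp : Params K θ α κ η₀) (i : ℕ) (hi : i < n)
    (h : C.ClaimOn K θ α r (i + 1) (C.A (i + 1)) (C.B (i + 1))) :
    C.ClaimOn K θ α r (i + 1) (C.B (i + 1)) (C.B (i + 1)) := by
  intro π τ h1 h2 h3 h4 h5 v hv
  set z := C.z (i + 1) with hz
  set A := C.A (i + 1) with hA
  have hzA : z ∉ A := C.z_notMem i hi
  have hB : C.B (i + 1) = insert z A := C.B_succ i hi
  -- the minimiser
  have hmin : ∀ ω, ∃ a ∈ A, C.D (i + 1) ω z
      = C.D (i + 1) ω a + |C.g (i + 1) ω z - C.g (i + 1) ω a| := by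
    intro ω
    rw [C.D_succ_notMem hi hzA]
    exact Finset.exists_mem_eq_inf' (C.A_ne i hi) _
  choose mn hmnA hmn using hmin
  have hzB : z ∈ C.B (i + 1) := by rw [hB]; exact Finset.mem_insert_self _ _
  have hAB : ∀ a ∈ A, a ∈ C.B (i + 1) := by
    intro a ha; rw [hB]; exact Finset.mem_insert_of_mem ha
  set push : (C.Ω (i + 1) → V → ℝ) → C.Ω (i + 1) → V → ℝ := fun f ω a =>
    f ω a + (if a = mn ω then f ω z else 0) with hpush
  have push_sum : ∀ (f : C.Ω (i + 1) → V → ℝ) (G : V → ℝ) (ω : C.Ω (i + 1)),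
      ∑ a ∈ A, push f ω a * G a = (∑ b ∈ C.B (i + 1), f ω b * G b)
        - f ω z * G z + f ω z * G (mn ω) := by
    intro f G ω
    rw [hB, Finset.sum_insert hzA]
    simp only [hpush, add_mul, Finset.sum_add_distrib, ite_mul, zero_mul]
    rw [Finset.sum_ite_eq' A (mn ω), if_pos (hmnA ω)]
    ring
  have push_sum1 : ∀ (f : C.Ω (i + 1) → V → ℝ) (ω : C.Ω (i + 1)),
      ∑ a ∈ A, push f ω a = ∑ b ∈ C.B (i + 1), f ω b := by
    intro f ω
    have := push_sum f (fun _ => 1) ω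
    simpa using this
  have push_nonneg : ∀ (f : C.Ω (i + 1) → V → ℝ) (ω : C.Ω (i + 1)),
      (∀ b ∈ C.B (i + 1), 0 ≤ f ω b) → ∀ a ∈ A, 0 ≤ push f ω a := by
    intro f ω hf a ha
    simp only [hpush]
    refine add_nonneg (hf a (hAB a ha)) ?_
    split_ifs
    · exact hf z hzB
    · exact le_rfl
  set c : C.Ω (i + 1) → ℝ := fun ω => |C.g (i + 1) ω z - C.g (i + 1) ω (mn ω)| with hc
  have key := h (push π) (fun l => push (τ l)) ?_ ?_ ?_ ?_ ?_ v hv
  · have e1 : ∑ ω, ∑ b ∈ A, push π ω b * C.D (i + 1) ω b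
        = (∑ ω, ∑ b ∈ C.B (i + 1), π ω b * C.D (i + 1) ω b) - ∑ ω, π ω z * c ω := by
      rw [← Finset.sum_sub_distrib]
      refine Finset.sum_congr rfl fun ω _ => ?_
      rw [push_sum, hmn ω]
      ring
    have e2 : ∀ l < K, ∑ ω, ∑ b ∈ A, push (τ l) ω b * |C.g (i + 1) ω b - C.g (i + 1) ω v|
        ≤ (∑ ω, ∑ b ∈ C.B (i + 1), τ l ω b * |C.g (i + 1) ω b - C.g (i + 1) ω v|)
          + ∑ ω, π ω z * c ω := by
      intro l hl
      rw [← Finset.sum_add_distrib]
      refine Finset.sum_le_sum fun ω _ => ?_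
      rw [push_sum]
      have f1 : |C.g (i + 1) ω (mn ω) - C.g (i + 1) ω v|
          ≤ c ω + |C.g (i + 1) ω z - C.g (i + 1) ω v| := by
        simp only [hc]
        rw [abs_sub_comm (C.g (i + 1) ω z) (C.g (i + 1) ω (mn ω))]
        exact abs_sub_le _ _ _
      have f2 := mul_le_mul_of_nonneg_left f1 (h3 l hl ω z hzB)
      have f3 := mul_le_mul_of_nonneg_right (h4 l hl ω z hzB) (show 0 ≤ c ω from abs_nonneg _)
      linarith
    rw [e1] at key
    have hpos : ∀ l < K, 0 ≤ α l / θ l := fun l hl =>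
      div_nonneg (hp.α_pos l hl).le (hp.θ_pos l hl).le
    have e3 : ∑ l ∈ range K, α l / θ l *
          ∑ ω, ∑ b ∈ A, push (τ l) ω b * |C.g (i + 1) ω b - C.g (i + 1) ω v|
        ≤ ∑ l ∈ range K, (α l / θ l *
          (∑ ω, ∑ b ∈ C.B (i + 1), τ l ω b * |C.g (i + 1) ω b - C.g (i + 1) ω v|)
          + α l / θ l * ∑ ω, π ω z * c ω) := by
      refine Finset.sum_le_sum fun l hl => ?_
      rw [Finset.mem_range] at hl
      rw [← mul_add]
      exact mul_le_mul_of_nonneg_left (e2 l hl) (hpos l hl)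
    rw [Finset.sum_add_distrib, ← Finset.sum_mul] at e3
    rw [mul_sub] at key
    linarith
  · intro ω a ha
    exact push_nonneg π ω (fun b hb => h1 ω b hb) a ha
  · intro ω
    rw [push_sum1, h2]
  · intro l hl ω a ha
    exact push_nonneg (τ l) ω (fun b hb => h3 l hl ω b hb) a ha
  · intro l hl ω a ha
    simp only [hpush]
    refine add_le_add (h4 l hl ω a (hAB a ha)) ?_
    split_ifs
    · exact h4 l hl ω z hzB
    · exact le_rfl
  · intro l hl
    rw [← h5 l hl]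
    exact Finset.sum_congr rfl fun ω _ => push_sum1 (τ l) ω

/-- **Claim F.** -/
theorem fresh (hp : Params K θ α κ η₀)
    (hcard : ∀ i < n, (C.A (i + 1)).card ≤ K)
    (hr0 : ∀ v ∈ C.B 0, r v ≤ 0)
    (hr : ∀ i < n, ∀ a ∈ C.A (i + 1), r (C.z (i + 1)) ≤ r a + d (C.z (i + 1)) a)
    (hd : ∀ i < n, ∀ a ∈ C.A (i + 1), 0 ≤ d (C.z (i + 1)) a)
    (hLip : ∀ i < n, ∀ a ∈ C.A (i + 1),
      ∑ ω, C.P (i + 1) ω * |C.g (i + 1) ω (C.z (i + 1)) - C.g (i + 1) ω a| ≤ d (C.z (i + 1)) a)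
    (hAC : ∀ i < n, ∀ a ∈ C.A (i + 1),
      (∑ ω, if |C.g (i + 1) ω (C.z (i + 1)) - C.g (i + 1) ω a| < κ * d (C.z (i + 1)) a
        then C.P (i + 1) ω else 0) ≤ η₀)
    {x : V} (hx : x ∈ C.B n) (hK : 0 < K) :
    r x ≤ (∑ l ∈ range K, α l / θ l) * ∑ ω, C.P n ω * C.D n ω x := by
  have all : ∀ i ≤ n, C.ClaimOn K θ α r i (C.B i) (C.B i) := by
    intro i
    induction i with
    | zero => intro _; exact C.claim_zero hp hr0
    | succ i ih =>
      intro hi
      have hi' : i < n := hi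
      exact C.claim_jump hp i hi' (C.claim_intro hp i hi' (hcard i hi') (hr i hi') (hd i hi')
        (hLip i hi') (hAC i hi') (C.claim_reset i hi' (ih hi'.le)))
  have hθ1 : ∀ l < K, θ l ≤ 1 := by
    intro l hl
    have h1 := hp.θ_anti 0 l (Nat.zero_le _) hl
    have h2 := hp.θ_zero
    have h3 : (1 : ℝ) ≤ K := by exact_mod_cast hK
    have h4 := hp.θ_pos 0 hK
    nlinarith
  have key := all n le_rfl (fun ω b => if b = x then C.P n ω else 0)
    (fun l ω b => if b = x then θ l * C.P n ω else 0) ?_ ?_ ?_ ?_ ?_ x hx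
  · have e1 : ∑ l ∈ range K, α l / θ l * ∑ ω, ∑ b ∈ C.B n,
        (if b = x then θ l * C.P n ω else 0) * |C.g n ω b - C.g n ω x| = 0 := by
      apply Finset.sum_eq_zero; intro l _
      rw [Finset.sum_eq_zero, mul_zero]
      intro ω _
      apply Finset.sum_eq_zero; intro b _
      split_ifs with hb
      · rw [hb, sub_self, abs_zero, mul_zero]
      · rw [zero_mul]
    have e2 : ∑ ω, ∑ b ∈ C.B n, (if b = x then C.P n ω else 0) * C.D n ω b
        = ∑ ω, C.P n ω * C.D n ω x := by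
      refine Finset.sum_congr rfl fun ω _ => ?_
      simp only [ite_mul, zero_mul]
      rw [Finset.sum_ite_eq' (C.B n) x, if_pos hx]
    rw [e1, e2, zero_add] at key
    exact key
  · intro ω b _
    split_ifs
    · exact C.P_nonneg _ _
    · exact le_rfl
  · intro ω
    rw [Finset.sum_ite_eq' (C.B n) x, if_pos hx]
  · intro l hl ω b _
    split_ifs
    · exact mul_nonneg (hp.θ_pos l hl).le (C.P_nonneg _ _)
    · exact le_rfl
  · intro l hl ω b _
    split_ifs
    · exact mul_le_of_le_one_left (C.P_nonneg _ _) (hθ1 l hl)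
    · exact le_rfl
  · intro l hl
    have : ∀ ω, ∑ b ∈ C.B n, (if b = x then θ l * C.P n ω else 0) = θ l * C.P n ω := by
      intro ω
      rw [Finset.sum_ite_eq' (C.B n) x, if_pos hx]
    rw [Finset.sum_congr rfl fun ω _ => this ω, ← Finset.mul_sum, C.P_sum, mul_one]

end PathChain

end Vale.Agent.P235.H926
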