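import Vale.Agent.P235.H926.Params
import Vale.Agent.P235.H154.PathEnv

/-!
# Claim F for `H154.PathEnv`
-/

set_option autoImplicit false

namespace Vale.Agent.P235.H154.PathEnv

open Finset Vale.Agent.P235.H926 Vale.Agent.P235.H926.PathChain

variable {V : Type} [DecidableEq V] (C : PathEnv V)

/-- The induction statement: positions in `S`, vertices in `T`. -/
def ClaimOn (K : ℕ) (θ α : ℕ → ℝ) (r : V → ℝ) (i : ℕ) (S T : Finset V) : Prop :=
  ∀ (π : C.E i → V → ℝ) (τ : ℕ → C.E i → V → ℝ),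
    (∀ ω, ∀ b ∈ S, 0 ≤ π ω b) → (∀ ω, ∑ b ∈ S, π ω b = C.p i ω) →
    (∀ l < K, ∀ ω, ∀ b ∈ S, 0 ≤ τ l ω b) → (∀ l < K, ∀ ω, ∀ b ∈ S, τ l ω b ≤ π ω b) →
    (∀ l < K, ∑ ω, ∑ b ∈ S, τ l ω b = θ l) →
    ∀ v ∈ T, r v ≤ (∑ l ∈ range K, α l / θ l * ∑ ω, ∑ b ∈ S, τ l ω b * |C.g i ω b - C.g i ω v|)
      + (∑ l ∈ range K, α l / θ l) * ∑ ω, ∑ b ∈ S, π ω b * C.D i ω b

variable {K : ℕ} {θ α : ℕ → ℝ} {κ η₀ : ℝ} {r : V → ℝ} {d : V → V → ℝ}

theorem claim_zero (hp : Params K θ α κ η₀) (hr : ∀ v ∈ C.B 0, r v ≤ 0) :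
    C.ClaimOn K θ α r 0 (C.B 0) (C.B 0) := by
  intro π τ _ _ h3 _ _ v hv
  have h0 : ∑ ω, ∑ b ∈ C.B 0, π ω b * C.D 0 ω b = 0 := by
    apply Finset.sum_eq_zero; intro ω _
    apply Finset.sum_eq_zero; intro b _
    rw [C.D_zero, mul_zero]
  rw [h0, mul_zero, add_zero]
  refine (hr v hv).trans (Finset.sum_nonneg fun l hl => ?_)
  have hl' := Finset.mem_range.1 hl
  refine mul_nonneg (div_nonneg (hp.α_pos l hl').le (hp.θ_pos l hl').le) ?_
  refine Finset.sum_nonneg fun ω _ => Finset.sum_nonneg fun b hb => ?_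
  exact mul_nonneg (h3 l hl' ω b hb) (abs_nonneg _)

/-- transport of a function on `Ω (i+1)` to the past -/
noncomputable def back (i : ℕ) (f : C.E (i + 1) → ℝ) (ω : C.E i) : ℝ :=
  ∑ ω', C.q i ω ω' * (f ω' / C.p (i + 1) ω')

theorem sum_back_mul {i : ℕ} (f : C.E (i + 1) → ℝ)
    (hf : ∀ ω', C.p (i + 1) ω' = 0 → f ω' = 0) (h : C.E i → ℝ) (h' : C.E (i + 1) → ℝ)
    (hh : ∀ ω', ∑ ω, C.q i ω ω' * h ω = C.p (i + 1) ω' * h' ω') :
    ∑ ω, C.back i f ω * h ω = ∑ ω', f ω' * h' ω' := by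
  unfold back
  have e1 : ∀ ω, (∑ ω', C.q i ω ω' * (f ω' / C.p (i + 1) ω')) * h ω
      = ∑ ω', (f ω' / C.p (i + 1) ω') * (C.q i ω ω' * h ω) := by
    intro ω
    rw [Finset.sum_mul]
    exact Finset.sum_congr rfl fun ω' _ => by ring
  rw [Finset.sum_congr rfl fun ω _ => e1 ω, Finset.sum_comm]
  refine Finset.sum_congr rfl fun ω' _ => ?_
  rw [← Finset.mul_sum, hh ω']
  by_cases h0 : C.p (i + 1) ω' = 0
  · rw [h0, hf ω' h0]; simp
  · field_simp

theorem claim_reset (i : ℕ) (hi : i < C.n)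
    (h : C.ClaimOn K θ α r i (C.B i) (C.B i)) :
    C.ClaimOn K θ α r (i + 1) (C.A (i + 1)) (C.A (i + 1)) := by
  intro π τ h1 h2 h3 h4 h5 v hv
  have hπ0 : ∀ b ∈ C.A (i + 1), ∀ ω', C.p (i + 1) ω' = 0 → π ω' b = 0 := by
    intro b hb ω' h0
    have := h2 ω'
    rw [h0] at this
    exact (Finset.sum_eq_zero_iff_of_nonneg (fun b hb => h1 ω' b hb)).1 this b hb
  have hτ0 : ∀ l < K, ∀ b ∈ C.A (i + 1), ∀ ω', C.p (i + 1) ω' = 0 → τ l ω' b = 0 := by
    intro l hl b hb ω' h0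
    refine le_antisymm ?_ (h3 l hl ω' b hb)
    rw [← hπ0 b hb ω' h0]
    exact h4 l hl ω' b hb
  set π' : C.E i → V → ℝ := fun ω b => if b ∈ C.A (i + 1) then C.back i (fun ω' => π ω' b) ω else 0
    with hπ'
  set τ' : ℕ → C.E i → V → ℝ := fun l ω b =>
    if b ∈ C.A (i + 1) then C.back i (fun ω' => τ l ω' b) ω else 0 with hτ'
  have hsub := C.A_sub i hi
  -- sums over `B i` reduce to sums over `A (i+1)`
  have red : ∀ (F : V → ℝ) (G : V → ℝ), ∑ b ∈ C.B i, (if b ∈ C.A (i + 1) then F b else 0) * G b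
      = ∑ b ∈ C.A (i + 1), F b * G b := by
    intro F G
    rw [← Finset.sum_subset hsub]
    · exact Finset.sum_congr rfl fun b hb => by rw [if_pos hb]
    · intro b _ hb
      rw [if_neg hb, zero_mul]
  have red1 : ∀ (F : V → ℝ), ∑ b ∈ C.B i, (if b ∈ C.A (i + 1) then F b else 0)
      = ∑ b ∈ C.A (i + 1), F b := by
    intro F
    have := red F (fun _ => 1)
    simpa using this
  have back_nonneg : ∀ (f : C.E (i + 1) → ℝ), (∀ ω', 0 ≤ f ω') → ∀ ω, 0 ≤ C.back i f ω := by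
    intro f hf ω
    refine Finset.sum_nonneg fun ω' _ => mul_nonneg (C.q_nonneg _ _ _) ?_
    exact div_nonneg (hf ω') (C.p_nonneg _ _)
  have key := h π' τ' ?_ ?_ ?_ ?_ ?_ v (hsub hv)
  · refine key.trans (le_of_eq ?_)
    congr 1
    · refine Finset.sum_congr rfl fun l hl => ?_
      have hl' := Finset.mem_range.1 hl
      congr 1
      simp only [hτ', red]
      rw [Finset.sum_comm, Finset.sum_comm (s := Finset.univ) (t := C.A (i + 1))]
      refine Finset.sum_congr rfl fun b hb => ?_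
      exact C.sum_back_mul (fun ω' => τ l ω' b) (hτ0 l hl' b hb) _ _
        (fun ω' => C.av_abs hi hb hv ω')
    · congr 1
      simp only [hπ', red]
      rw [Finset.sum_comm, Finset.sum_comm (s := Finset.univ) (t := C.A (i + 1))]
      refine Finset.sum_congr rfl fun b hb => ?_
      refine C.sum_back_mul (fun ω' => π ω' b) (hπ0 b hb) _ _ (fun ω' => ?_)
      rw [C.D_avg hi hb]
  · intro ω b _
    simp only [hπ']
    split_ifs with hb
    · exact Finset.sum_nonneg fun ω' _ => mul_nonneg (C.q_nonneg _ _ _)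
        (div_nonneg (h1 ω' b hb) (C.p_nonneg _ _))
    · exact le_rfl
  · intro ω
    simp only [hπ', red1]
    unfold back
    rw [Finset.sum_comm]
    rw [← C.q_left i hi ω]
    refine Finset.sum_congr rfl fun ω' _ => ?_
    rw [← Finset.mul_sum, ← Finset.sum_div, h2 ω']
    by_cases h0 : C.p (i + 1) ω' = 0
    · rw [C.q_zero hi h0]; simp
    · rw [div_self h0, mul_one]
  · intro l hl ω b _
    simp only [hτ']
    split_ifs with hb
    · exact Finset.sum_nonneg fun ω' _ => mul_nonneg (C.q_nonneg _ _ _)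
        (div_nonneg (h3 l hl ω' b hb) (C.p_nonneg _ _))
    · exact le_rfl
  · intro l hl ω b _
    simp only [hτ', hπ']
    split_ifs with hb
    · refine Finset.sum_le_sum fun ω' _ => mul_le_mul_of_nonneg_left ?_ (C.q_nonneg _ _ _)
      exact div_le_div_of_nonneg_right (h4 l hl ω' b hb) (C.p_nonneg _ _)
    · exact le_rfl
  · intro l hl
    simp only [hτ', red1]
    rw [← h5 l hl, Finset.sum_comm, Finset.sum_comm (s := Finset.univ) (t := C.A (i + 1))]
    refine Finset.sum_congr rfl fun b hb => ?_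
    have := C.sum_back_mul (fun ω' => τ l ω' b) (hτ0 l hl b hb) (fun _ => 1) (fun _ => 1)
      (fun ω' => by simp [C.q_right i hi ω'])
    simpa using this

/-- introduction of the new vertex -/
theorem claim_intro (hp : Params K θ α κ η₀) (i : ℕ) (hi : i < C.n)
    (hcard : (C.A (i + 1)).card ≤ K)
    (hr : ∀ a ∈ C.A (i + 1), r (C.z (i + 1)) ≤ r a + d (C.z (i + 1)) a)
    (hd : ∀ a ∈ C.A (i + 1), 0 ≤ d (C.z (i + 1)) a)
    (hLip : ∀ a ∈ C.A (i + 1),
      ∑ ω, C.p (i + 1) ω * |C.g (i + 1) ω (C.z (i + 1)) - C.g (i + 1) ω a| ≤ d (C.z (i + 1)) a)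
    (hAC : ∀ a ∈ C.A (i + 1),
      (∑ ω, if |C.g (i + 1) ω (C.z (i + 1)) - C.g (i + 1) ω a| < κ * d (C.z (i + 1)) a
        then C.p (i + 1) ω else 0) ≤ η₀)
    (h : C.ClaimOn K θ α r (i + 1) (C.A (i + 1)) (C.A (i + 1))) :
    C.ClaimOn K θ α r (i + 1) (C.A (i + 1)) (C.B (i + 1)) := by
  intro π τ h1 h2 h3 h4 h5 v hv
  rw [C.B_succ i hi, Finset.mem_insert] at hv
  rcases hv with hv | hv
  swap
  · exact h π τ h1 h2 h3 h4 h5 v hv
  subst hv
  set z := C.z (i + 1) with hz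
  set A := C.A (i + 1) with hA
  -- masses
  set m : V → ℝ := fun a => ∑ ω, π ω a with hm
  have hm0 : ∀ a ∈ A, 0 ≤ m a := fun a ha => Finset.sum_nonneg fun ω _ => h1 ω a ha
  have hmsum : ∑ a ∈ A, m a = 1 := by
    simp only [hm]
    rw [Finset.sum_comm]
    rw [Finset.sum_congr rfl fun ω _ => h2 ω, C.p_sum _ hi]
  obtain ⟨l₀, hl₀, v, hv, hmv, hsm⟩ := exists_level (C.A_ne i hi) hcard hp.θ_pos hp.θ_zero
    hp.θ_succ m (d z) hmsum
  have hmv_pos : 0 < m v := lt_of_lt_of_le (hp.θ_pos l₀ hl₀) hmv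
  -- the modified family
  set τ' : ℕ → C.E (i + 1) → V → ℝ := fun l ω b =>
    if l < l₀ then τ l ω b else (if b = v then θ l / m v * π ω v else 0) with hτ'
  have key := h π τ' h1 h2 ?_ ?_ ?_ v hv
  · set δ := d z v with hδ
    have hδ0 : 0 ≤ δ := hd v hv
    set E := (∑ l ∈ range K, α l / θ l) * ∑ ω, ∑ b ∈ A, π ω b * C.D (i + 1) ω b with hE
    -- I-terms
    set I : ℕ → ℝ := fun l => ∑ ω, ∑ b ∈ A, τ l ω b * |C.g (i + 1) ω b - C.g (i + 1) ω z| with hI
    have hI0 : ∀ l < K, 0 ≤ I l := fun l hl => Finset.sum_nonneg fun ω _ =>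
      Finset.sum_nonneg fun b hb => mul_nonneg (h3 l hl ω b hb) (abs_nonneg _)
    have hτP : ∀ l < K, ∀ ω, ∀ b ∈ A, τ l ω b ≤ C.p (i + 1) ω := by
      intro l hl ω b hb
      refine (h4 l hl ω b hb).trans ?_
      rw [← h2 ω]
      exact Finset.single_le_sum (f := fun b => π ω b) (fun b hb => h1 ω b hb) hb
    -- l < l₀
    have hlow : ∀ l < l₀, ∑ ω, ∑ b ∈ A, τ' l ω b * |C.g (i + 1) ω b - C.g (i + 1) ω v| ≤ I l + δ := by
      intro l hl
      have hlK : l < K := hl.trans hl₀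
      have e1 : ∀ ω, ∑ b ∈ A, τ' l ω b * |C.g (i + 1) ω b - C.g (i + 1) ω v|
          ≤ (∑ b ∈ A, τ l ω b * |C.g (i + 1) ω b - C.g (i + 1) ω z|)
            + C.p (i + 1) ω * |C.g (i + 1) ω z - C.g (i + 1) ω v| := by
        intro ω
        have e2 : ∑ b ∈ A, τ' l ω b * |C.g (i + 1) ω b - C.g (i + 1) ω v|
            ≤ ∑ b ∈ A, (τ l ω b * |C.g (i + 1) ω b - C.g (i + 1) ω z|
              + τ l ω b * |C.g (i + 1) ω z - C.g (i + 1) ω v|) := by
          refine Finset.sum_le_sum fun b hb => ?_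
          simp only [hτ', if_pos hl]
          rw [← mul_add]
          exact mul_le_mul_of_nonneg_left (abs_sub_le _ _ _) (h3 l hlK ω b hb)
        rw [Finset.sum_add_distrib, ← Finset.sum_mul] at e2
        have e3 : ∑ b ∈ A, τ l ω b ≤ C.p (i + 1) ω := by
          rw [← h2 ω]
          exact Finset.sum_le_sum fun b hb => h4 l hlK ω b hb
        have e4 := mul_le_mul_of_nonneg_right e3
          (abs_nonneg (C.g (i + 1) ω z - C.g (i + 1) ω v))
        linarith
      have e5 := Finset.sum_le_sum (s := Finset.univ) fun ω _ => e1 ω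
      rw [Finset.sum_add_distrib] at e5
      have e6 := hLip v hv
      linarith
    -- l₀ ≤ l
    have hhigh : ∀ l, ¬ l < l₀ → ∑ ω, ∑ b ∈ A, τ' l ω b * |C.g (i + 1) ω b - C.g (i + 1) ω v| = 0 := by
      intro l hl
      apply Finset.sum_eq_zero; intro ω _
      apply Finset.sum_eq_zero; intro b _
      simp only [hτ', if_neg hl]
      split_ifs with hb
      · rw [hb, sub_self, abs_zero, mul_zero]
      · rw [zero_mul]
    -- the gain at level l₀
    have hgain : κ * δ * (θ l₀ / 2) ≤ I l₀ := by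
      have p1 : ∀ ω, ∀ b ∈ A, κ * δ * (τ l₀ ω b - (if d z b < δ then π ω b else 0)
          - (if |C.g (i + 1) ω z - C.g (i + 1) ω b| < κ * d z b then C.p (i + 1) ω else 0))
          ≤ τ l₀ ω b * |C.g (i + 1) ω b - C.g (i + 1) ω z| := by
        intro ω b hb
        have q1 := h3 l₀ hl₀ ω b hb
        have q2 := h4 l₀ hl₀ ω b hb
        have q3 := hτP l₀ hl₀ ω b hb
        have q4 := C.p_nonneg (i + 1) ω
        have q5 : 0 ≤ κ * δ := mul_nonneg hp.κ_pos.le hδ0
        have q6 := h1 ω b hb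
        have q7 : 0 ≤ τ l₀ ω b * |C.g (i + 1) ω b - C.g (i + 1) ω z| :=
          mul_nonneg q1 (abs_nonneg _)
        by_cases c1 : d z b < δ
        · rw [if_pos c1]
          refine le_trans ?_ q7
          refine mul_nonpos_of_nonneg_of_nonpos q5 ?_
          split_ifs <;> linarith
        · by_cases c2 : |C.g (i + 1) ω z - C.g (i + 1) ω b| < κ * d z b
          · rw [if_pos c2]
            refine le_trans ?_ q7
            refine mul_nonpos_of_nonneg_of_nonpos q5 ?_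
            split_ifs <;> linarith
          · rw [if_neg c1, if_neg c2, sub_zero, sub_zero, mul_comm]
            refine mul_le_mul_of_nonneg_left ?_ q1
            rw [abs_sub_comm]
            rw [not_lt] at c1 c2
            exact (mul_le_mul_of_nonneg_left c1 hp.κ_pos.le).trans c2
      have p2 : κ * δ * ((∑ ω, ∑ b ∈ A, τ l₀ ω b) - (∑ ω, ∑ b ∈ A, if d z b < δ then π ω b else 0)
          - (∑ ω, ∑ b ∈ A, if |C.g (i + 1) ω z - C.g (i + 1) ω b| < κ * d z b
              then C.p (i + 1) ω else 0)) ≤ I l₀ := by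
        have p3 : κ * δ * ((∑ ω, ∑ b ∈ A, τ l₀ ω b) - (∑ ω, ∑ b ∈ A, if d z b < δ then π ω b else 0)
          - (∑ ω, ∑ b ∈ A, if |C.g (i + 1) ω z - C.g (i + 1) ω b| < κ * d z b
              then C.p (i + 1) ω else 0))
            = ∑ ω, ∑ b ∈ A, κ * δ * (τ l₀ ω b - (if d z b < δ then π ω b else 0)
              - (if |C.g (i + 1) ω z - C.g (i + 1) ω b| < κ * d z b then C.p (i + 1) ω else 0)) := by
          simp only [Finset.mul_sum, mul_sub, Finset.sum_sub_distrib]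
        rw [p3]
        exact Finset.sum_le_sum fun ω _ => Finset.sum_le_sum fun b hb => p1 ω b hb
      have p4 : (∑ ω, ∑ b ∈ A, if d z b < δ then π ω b else 0) ≤ θ l₀ / 4 := by
        rw [Finset.sum_comm]
        have : ∑ b ∈ A, (∑ ω, if d z b < δ then π ω b else 0) = ∑ a ∈ A with d z a < d z v, m a := by
          rw [Finset.sum_filter]
          refine Finset.sum_congr rfl fun b _ => ?_
          by_cases c : d z b < δ
          · simp only [if_pos c, hm]
            rw [if_pos (show d z b < d z v from c)]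
          · simp only [if_neg c]
            rw [if_neg (show ¬ d z b < d z v from c)]
            simp
        rw [this]
        exact hsm
      have p5 : (∑ ω, ∑ b ∈ A, if |C.g (i + 1) ω z - C.g (i + 1) ω b| < κ * d z b
              then C.p (i + 1) ω else 0) ≤ θ l₀ / 4 := by
        rw [Finset.sum_comm]
        have q1 : ∑ b ∈ A, (∑ ω, if |C.g (i + 1) ω z - C.g (i + 1) ω b| < κ * d z b
              then C.p (i + 1) ω else 0) ≤ ∑ _b ∈ A, η₀ :=
          Finset.sum_le_sum fun b hb => hAC b hb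
        rw [Finset.sum_const, nsmul_eq_mul] at q1
        have q2 : (A.card : ℝ) ≤ K := by exact_mod_cast hcard
        have q3 : 0 ≤ η₀ := by
          refine le_trans ?_ (hAC v hv)
          refine Finset.sum_nonneg fun ω _ => ?_
          split_ifs
          · exact C.p_nonneg _ _
          · exact le_rfl
        have q4 := mul_le_mul_of_nonneg_right q2 q3
        have q5 := hp.η_le l₀ hl₀
        linarith
      rw [h5 l₀ hl₀] at p2
      refine le_trans ?_ p2
      refine mul_le_mul_of_nonneg_left ?_ (mul_nonneg hp.κ_pos.le hδ0)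
      linarith
    -- compare the sums
    have hcmp : (∑ l ∈ range K, α l / θ l *
          ∑ ω, ∑ b ∈ A, τ' l ω b * |C.g (i + 1) ω b - C.g (i + 1) ω v|) + δ
        ≤ ∑ l ∈ range K, α l / θ l * I l := by
      have hpos : ∀ l < K, 0 ≤ α l / θ l := fun l hl =>
        div_nonneg (hp.α_pos l hl).le (hp.θ_pos l hl).le
      have c1 : ∑ l ∈ range K, α l / θ l *
          ∑ ω, ∑ b ∈ A, τ' l ω b * |C.g (i + 1) ω b - C.g (i + 1) ω v|
          = ∑ l ∈ range l₀, α l / θ l *
          ∑ ω, ∑ b ∈ A, τ' l ω b * |C.g (i + 1) ω b - C.g (i + 1) ω v| := by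
        symm
        apply Finset.sum_subset
        · intro l hl
          rw [Finset.mem_range] at hl ⊢
          omega
        · intro l _ hl
          rw [Finset.mem_range] at hl
          rw [hhigh l hl, mul_zero]
      have c2 : ∑ l ∈ range l₀, α l / θ l *
          ∑ ω, ∑ b ∈ A, τ' l ω b * |C.g (i + 1) ω b - C.g (i + 1) ω v|
          ≤ ∑ l ∈ range l₀, (α l / θ l * I l + α l / θ l * δ) := by
        refine Finset.sum_le_sum fun l hl => ?_
        rw [Finset.mem_range] at hl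
        rw [← mul_add]
        exact mul_le_mul_of_nonneg_left (hlow l hl) (hpos l (hl.trans hl₀))
      rw [Finset.sum_add_distrib, ← Finset.sum_mul] at c2
      have c3 : ∑ l ∈ range (l₀ + 1), α l / θ l * I l ≤ ∑ l ∈ range K, α l / θ l * I l := by
        apply Finset.sum_le_sum_of_subset_of_nonneg
        · intro l hl
          rw [Finset.mem_range] at hl ⊢
          omega
        · intro l hl _
          rw [Finset.mem_range] at hl
          exact mul_nonneg (hpos l hl) (hI0 l hl)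
      rw [Finset.sum_range_succ] at c3
      have c4 : δ * (1 + ∑ j ∈ range l₀, α j / θ j) ≤ α l₀ / θ l₀ * I l₀ := by
        have c5 : α l₀ / θ l₀ * (κ * δ * (θ l₀ / 2)) ≤ α l₀ / θ l₀ * I l₀ :=
          mul_le_mul_of_nonneg_left hgain (hpos l₀ hl₀)
        have c6 : α l₀ / θ l₀ * (κ * δ * (θ l₀ / 2)) = δ * (α l₀ * κ / 2) := by
          have := (hp.θ_pos l₀ hl₀).ne'
          field_simp
        rw [c6] at c5
        exact (mul_le_mul_of_nonneg_left (hp.α_ge l₀ hl₀) hδ0).trans c5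
      rw [c1]
      linarith
    have := hr v hv
    linarith
  · -- nonneg
    intro l hl ω b hb
    simp only [hτ']
    split_ifs with c1 c2
    · exact h3 l hl ω b hb
    · exact mul_nonneg (div_nonneg (hp.θ_pos l hl).le hmv_pos.le) (h1 ω v hv)
    · exact le_rfl
  · intro l hl ω b hb
    simp only [hτ']
    split_ifs with c1 c2
    · exact h4 l hl ω b hb
    · rw [c2]
      have : θ l / m v ≤ 1 := by
        rw [div_le_one hmv_pos]
        exact (hp.θ_anti l₀ l (not_lt.1 c1) hl).trans hmv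
      exact mul_le_of_le_one_left (h1 ω v hv) this
    · exact h1 ω b hb
  · intro l hl
    by_cases c1 : l < l₀
    · simp only [hτ', if_pos c1]
      exact h5 l hl
    · simp only [hτ', if_neg c1]
      have : ∀ ω, ∑ b ∈ A, (if b = v then θ l / m v * π ω v else 0) = θ l / m v * π ω v := by
        intro ω
        rw [Finset.sum_ite_eq' A v, if_pos hv]
      rw [Finset.sum_congr rfl fun ω _ => this ω, ← Finset.mul_sum]
      exact div_mul_cancel₀ _ hmv_pos.ne'

/-- the jump of the position -/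
theorem claim_jump (hp : Params K θ α κ η₀) (i : ℕ) (hi : i < C.n)
    (h : C.ClaimOn K θ α r (i + 1) (C.A (i + 1)) (C.B (i + 1))) :
    C.ClaimOn K θ α r (i + 1) (C.B (i + 1)) (C.B (i + 1)) := by
  intro π τ h1 h2 h3 h4 h5 v hv
  set z := C.z (i + 1) with hz
  set A := C.A (i + 1) with hA
  have hB : C.B (i + 1) = insert z A := C.B_succ i hi
  by_cases hzA : z ∈ A
  · have hBA : C.B (i + 1) = A := by rw [hB, Finset.insert_eq_of_mem hzA]
    rw [hBA] at h1 h2 h3 h4 h5 hv ⊢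
    exact h π τ h1 h2 h3 h4 h5 v (by rw [hBA]; exact hv)
  -- the minimiser
  have hmin : ∀ ω, ∃ a ∈ A, C.D (i + 1) ω z
      = C.D (i + 1) ω a + |C.g (i + 1) ω z - C.g (i + 1) ω a| := by
    intro ω
    exact C.D_min hi hzA ω
  choose mn hmnA hmn using hmin
  have hzB : z ∈ C.B (i + 1) := by rw [hB]; exact Finset.mem_insert_self _ _
  have hAB : ∀ a ∈ A, a ∈ C.B (i + 1) := by
    intro a ha; rw [hB]; exact Finset.mem_insert_of_mem ha
  set push : (C.E (i + 1) → V → ℝ) → C.E (i + 1) → V → ℝ := fun f ω a =>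
    f ω a + (if a = mn ω then f ω z else 0) with hpush
  have push_sum : ∀ (f : C.E (i + 1) → V → ℝ) (G : V → ℝ) (ω : C.E (i + 1)),
      ∑ a ∈ A, push f ω a * G a = (∑ b ∈ C.B (i + 1), f ω b * G b)
        - f ω z * G z + f ω z * G (mn ω) := by
    intro f G ω
    rw [hB, Finset.sum_insert hzA]
    simp only [hpush, add_mul, Finset.sum_add_distrib, ite_mul, zero_mul]
    rw [Finset.sum_ite_eq' A (mn ω), if_pos (hmnA ω)]
    ring
  have push_sum1 : ∀ (f : C.E (i + 1) → V → ℝ) (ω : C.E (i + 1)),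
      ∑ a ∈ A, push f ω a = ∑ b ∈ C.B (i + 1), f ω b := by
    intro f ω
    have := push_sum f (fun _ => 1) ω
    simpa using this
  have push_nonneg : ∀ (f : C.E (i + 1) → V → ℝ) (ω : C.E (i + 1)),
      (∀ b ∈ C.B (i + 1), 0 ≤ f ω b) → ∀ a ∈ A, 0 ≤ push f ω a := by
    intro f ω hf a ha
    simp only [hpush]
    refine add_nonneg (hf a (hAB a ha)) ?_
    split_ifs
    · exact hf z hzB
    · exact le_rfl
  set c : C.E (i + 1) → ℝ := fun ω => |C.g (i + 1) ω z - C.g (i + 1) ω (mn ω)| with hc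
  have key := h (push π) (fun l => push (τ l)) ?_ ?_ ?_ ?_ ?_ v hv
  · have e1 : ∑ ω, ∑ b ∈ A, push π ω b * C.D (i + 1) ω b
        = (∑ ω, ∑ b ∈ C.B (i + 1), π ω b * C.D (i + 1) ω b) - ∑ ω, π ω z * c ω := by
      rw [← Finset.sum_sub_distrib]
      refine Finset.sum_congr rfl fun ω _ => ?_
      rw [push_sum, hmn ω]
      ring
    have e2 : ∀ l < K, ∑ ω, ∑ b ∈ A, push (τ l) ω b * |C.g (i + 1) ω b - C.g (i + 1) ω v|
        ≤ (∑ ω, ∑ b ∈ C.B (i + 1), τ l ω b * |C.g (i + 1) ω b - C.g (i + 1) ω v|)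
          + ∑ ω, π ω z * c ω := by
      intro l hl
      rw [← Finset.sum_add_distrib]
      refine Finset.sum_le_sum fun ω _ => ?_
      rw [push_sum]
      have f1 : |C.g (i + 1) ω (mn ω) - C.g (i + 1) ω v|
          ≤ c ω + |C.g (i + 1) ω z - C.g (i + 1) ω v| := by
        simp only [hc]
        rw [abs_sub_comm (C.g (i + 1) ω z) (C.g (i + 1) ω (mn ω))]
        exact abs_sub_le _ _ _
      have f2 := mul_le_mul_of_nonneg_left f1 (h3 l hl ω z hzB)
      have f3 := mul_le_mul_of_nonneg_right (h4 l hl ω z hzB) (show 0 ≤ c ω from abs_nonneg _)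
      linarith
    rw [e1] at key
    have hpos : ∀ l < K, 0 ≤ α l / θ l := fun l hl =>
      div_nonneg (hp.α_pos l hl).le (hp.θ_pos l hl).le
    have e3 : ∑ l ∈ range K, α l / θ l *
          ∑ ω, ∑ b ∈ A, push (τ l) ω b * |C.g (i + 1) ω b - C.g (i + 1) ω v|
        ≤ ∑ l ∈ range K, (α l / θ l *
          (∑ ω, ∑ b ∈ C.B (i + 1), τ l ω b * |C.g (i + 1) ω b - C.g (i + 1) ω v|)
          + α l / θ l * ∑ ω, π ω z * c ω) := by
      refine Finset.sum_le_sum fun l hl => ?_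
      rw [Finset.mem_range] at hl
      rw [← mul_add]
      exact mul_le_mul_of_nonneg_left (e2 l hl) (hpos l hl)
    rw [Finset.sum_add_distrib, ← Finset.sum_mul] at e3
    rw [mul_sub] at key
    linarith
  · intro ω a ha
    exact push_nonneg π ω (fun b hb => h1 ω b hb) a ha
  · intro ω
    rw [push_sum1, h2]
  · intro l hl ω a ha
    exact push_nonneg (τ l) ω (fun b hb => h3 l hl ω b hb) a ha
  · intro l hl ω a ha
    simp only [hpush]
    refine add_le_add (h4 l hl ω a (hAB a ha)) ?_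
    split_ifs
    · exact h4 l hl ω z hzB
    · exact le_rfl
  · intro l hl
    rw [← h5 l hl]
    exact Finset.sum_congr rfl fun ω _ => push_sum1 (τ l) ω

/-- **Claim F.** -/
theorem fresh (hp : Params K θ α κ η₀)
    (hcard : ∀ i < C.n, (C.A (i + 1)).card ≤ K)
    (hr0 : ∀ v ∈ C.B 0, r v ≤ 0)
    (hr : ∀ i < C.n, ∀ a ∈ C.A (i + 1), r (C.z (i + 1)) ≤ r a + d (C.z (i + 1)) a)
    (hd : ∀ i < C.n, ∀ a ∈ C.A (i + 1), 0 ≤ d (C.z (i + 1)) a)
    (hLip : ∀ i < C.n, ∀ a ∈ C.A (i + 1),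
      ∑ ω, C.p (i + 1) ω * |C.g (i + 1) ω (C.z (i + 1)) - C.g (i + 1) ω a| ≤ d (C.z (i + 1)) a)
    (hAC : ∀ i < C.n, ∀ a ∈ C.A (i + 1),
      (∑ ω, if |C.g (i + 1) ω (C.z (i + 1)) - C.g (i + 1) ω a| < κ * d (C.z (i + 1)) a
        then C.p (i + 1) ω else 0) ≤ η₀)
    {x : V} (hx : x ∈ C.B C.n) (hK : 0 < K) :
    r x ≤ (∑ l ∈ range K, α l / θ l) * ∑ ω, C.p C.n ω * C.D C.n ω x := by
  have all : ∀ i ≤ C.n, C.ClaimOn K θ α r i (C.B i) (C.B i) := by
    intro i
    induction i with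
    | zero => intro _; exact C.claim_zero hp hr0
    | succ i ih =>
      intro hi
      have hi' : i < C.n := hi
      exact C.claim_jump hp i hi' (C.claim_intro hp i hi' (hcard i hi') (hr i hi') (hd i hi')
        (hLip i hi') (hAC i hi') (C.claim_reset i hi' (ih hi'.le)))
  have hθ1 : ∀ l < K, θ l ≤ 1 := by
    intro l hl
    have h1 := hp.θ_anti 0 l (Nat.zero_le _) hl
    have h2 := hp.θ_zero
    have h3 : (1 : ℝ) ≤ K := by exact_mod_cast hK
    have h4 := hp.θ_pos 0 hK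
    nlinarith
  have key := all C.n le_rfl (fun ω b => if b = x then C.p C.n ω else 0)
    (fun l ω b => if b = x then θ l * C.p C.n ω else 0) ?_ ?_ ?_ ?_ ?_ x hx
  · have e1 : ∑ l ∈ range K, α l / θ l * ∑ ω, ∑ b ∈ C.B C.n,
        (if b = x then θ l * C.p C.n ω else 0) * |C.g C.n ω b - C.g C.n ω x| = 0 := by
      apply Finset.sum_eq_zero; intro l _
      rw [Finset.sum_eq_zero, mul_zero]
      intro ω _
      apply Finset.sum_eq_zero; intro b _
      split_ifs with hb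
      · rw [hb, sub_self, abs_zero, mul_zero]
      · rw [zero_mul]
    have e2 : ∑ ω, ∑ b ∈ C.B C.n, (if b = x then C.p C.n ω else 0) * C.D C.n ω b
        = ∑ ω, C.p C.n ω * C.D C.n ω x := by
      refine Finset.sum_congr rfl fun ω _ => ?_
      simp only [ite_mul, zero_mul]
      rw [Finset.sum_ite_eq' (C.B C.n) x, if_pos hx]
    rw [e1, e2, zero_add] at key
    exact key
  · intro ω b _
    split_ifs
    · exact C.p_nonneg _ _
    · exact le_rfl
  · intro ω
    rw [Finset.sum_ite_eq' (C.B C.n) x, if_pos hx]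
  · intro l hl ω b _
    split_ifs
    · exact mul_nonneg (hp.θ_pos l hl).le (C.p_nonneg _ _)
    · exact le_rfl
  · intro l hl ω b _
    split_ifs
    · exact mul_le_of_le_one_left (C.p_nonneg _ _) (hθ1 l hl)
    · exact le_rfl
  · intro l hl
    have : ∀ ω, ∑ b ∈ C.B C.n, (if b = x then θ l * C.p C.n ω else 0) = θ l * C.p C.n ω := by
      intro ω
      rw [Finset.sum_ite_eq' (C.B C.n) x, if_pos hx]
    rw [Finset.sum_congr rfl fun ω _ => this ω, ← Finset.mul_sum, C.p_sum _ le_rfl, mul_one]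




/-- **Claim F** with the explicit parameters `thSeq`, `alSeq`, `C1`. -/
theorem claimF {K : ℕ} (hK : 0 < K) {κ η₀ : ℝ} (hκ : 0 < κ) (hη : K * η₀ ≤ thSeq K (K - 1) / 4)
    (d : V → V → ℝ) (r : V → ℝ)
    (hcard : ∀ i < C.n, (C.A (i + 1)).card ≤ K)
    (hr0 : ∀ v ∈ C.B 0, r v ≤ 0)
    (hr : ∀ i < C.n, ∀ a ∈ C.A (i + 1), r (C.z (i + 1)) ≤ r a + d (C.z (i + 1)) a)
    (hd : ∀ i < C.n, ∀ a ∈ C.A (i + 1), 0 ≤ d (C.z (i + 1)) a)
    (hLip : ∀ i < C.n, ∀ a ∈ C.A (i + 1),
      ∑ ω, C.p (i + 1) ω * |C.g (i + 1) ω (C.z (i + 1)) - C.g (i + 1) ω a| ≤ d (C.z (i + 1)) a)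
    (hAC : ∀ i < C.n, ∀ a ∈ C.A (i + 1),
      (∑ ω, if |C.g (i + 1) ω (C.z (i + 1)) - C.g (i + 1) ω a| < κ * d (C.z (i + 1)) a
        then C.p (i + 1) ω else 0) ≤ η₀)
    {x : V} (hx : x ∈ C.B C.n) :
    r x ≤ C1 K κ * ∑ ω, C.p C.n ω * C.D C.n ω x :=
  C.fresh (params hK hκ hη) hcard hr0 hr hd hLip hAC hx hK

end Vale.Agent.P235.H154.PathEnv
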